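import Crest.Agent.R246.F1.Est

/-! Row 246, block F1: change of variables in the weak equation (plan in `F1/Defs.lean`). -/

set_option autoImplicit false
set_option linter.unusedSectionVars false

open MeasureTheory Metric Filter Topology Set Module
open scoped RealInnerProductSpace ENNReal ContDiff Real

noncomputable section

namespace Crest.Agent.R246.F1

variable {E : Type} [NormedAddCommGroup E] [InnerProductSpace ℝ E] [FiniteDimensional ℝ E]
  [MeasurableSpace E] [BorelSpace E]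

lemma chg_fd {χ : E → ℝ} {L : ℝ} (hχ : Cut χ L) (μ y : E) :
    HasFDerivAt (fun y => y + χ y • μ)
      (ContinuousLinearMap.id ℝ E + rk μ (gradient χ y)) y := by
  have h := ((hχ.smooth.differentiable (by norm_num)) y).hasGradientAt.hasFDerivAt
  exact (hasFDerivAt_id y).add (h.smul_const μ)

theorem det_rk (c μ : E) : (ContinuousLinearMap.id ℝ E + rk μ c).det = 1 + ⟪c, μ⟫ := by
  exact LinearMap.transvection.det ((innerSL ℝ c : E →L[ℝ] ℝ) : E →ₗ[ℝ] ℝ) μ

lemma chg_J {χ : E → ℝ} {L : ℝ} (hχ : Cut χ L) {μ : E} (hμ : L * ‖μ‖ ≤ 1 / 2) (y : E) :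
    0 < 1 + ⟪gradient χ y, μ⟫ := by
  have h1 := abs_real_inner_le_norm (gradient χ y) μ
  have h2 := mul_le_mul_of_nonneg_right (hχ.grad_le y) (norm_nonneg μ)
  linarith [neg_abs_le ⟪gradient χ y, μ⟫]

theorem exists_homeo {χ : E → ℝ} {L : ℝ} (hχ : Cut χ L) {μ : E} (hμ : L * ‖μ‖ ≤ 1 / 2) :
    ∃ T : E ≃ₜ E, (∀ y, T y = y + χ y • μ) ∧ ContDiff ℝ 1 T.symm := by
  have ha : ApproximatesLinearOn (fun y => y + χ y • μ)
      ((ContinuousLinearEquiv.refl ℝ E : E ≃L[ℝ] E) : E →L[ℝ] E) univ (1 / 2) := by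
    intro x _ y _
    have e : x + χ x • μ - (y + χ y • μ)
        - ((ContinuousLinearEquiv.refl ℝ E : E ≃L[ℝ] E) : E →L[ℝ] E) (x - y)
        = (χ x - χ y) • μ := by
      simp [sub_smul]; abel
    rw [e, norm_smul, Real.norm_eq_abs]
    have h1 := mul_le_mul_of_nonneg_right (hχ.lip x y) (norm_nonneg μ)
    push_cast
    nlinarith [norm_nonneg (x - y)]
  have hc : Subsingleton E ∨ (1 / 2 : NNReal) <
      ‖((ContinuousLinearEquiv.refl ℝ E : E ≃L[ℝ] E).symm : E →L[ℝ] E)‖₊⁻¹ := by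
    rcases subsingleton_or_nontrivial E with h | h
    · exact Or.inl h
    · right
      have : ‖((ContinuousLinearEquiv.refl ℝ E : E ≃L[ℝ] E).symm : E →L[ℝ] E)‖₊ = 1 :=
        ContinuousLinearMap.nnnorm_id
      rw [this]
      norm_num
  refine ⟨ha.toHomeomorph _ hc, fun _ => rfl, Homeomorph.contDiff_symm _
    (f₀' := fun y => (ContinuousLinearMap.id ℝ E + rk μ (gradient χ y)).toContinuousLinearEquivOfDetNeZero
      (by rw [det_rk]; exact (chg_J hχ hμ y).ne')) (fun y => ?_) ?_⟩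
  · rw [ContinuousLinearMap.coe_toContinuousLinearEquivOfDetNeZero]
    exact chg_fd hχ μ y
  · exact contDiff_id.add ((hχ.smooth.of_le (by norm_num)).smul contDiff_const)

lemma chg_mem {χ : E → ℝ} {L : ℝ} (hχ : Cut χ L) {μ : E} (hμ1 : ‖μ‖ ≤ 1) {y : E}
    (hy : y ∈ ball (0 : E) 3) : y + χ y • μ ∈ ball (0 : E) 3 := by
  rcases lt_or_ge 1 ‖y‖ with h | h
  · simpa [hχ.zero y h] using hy
  · rw [mem_ball_zero_iff]
    refine (norm_add_le _ _).trans_lt ?_
    rw [norm_smul, Real.norm_eq_abs]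
    nlinarith [hχ.abs_le y, norm_nonneg μ, abs_nonneg (χ y)]

theorem wd_chg {χ : E → ℝ} {L : ℝ} (hχ : Cut χ L) {μ : E} (hμ : L * ‖μ‖ ≤ 1 / 2) (hμ1 : ‖μ‖ ≤ 1)
    {A : E → E} (hA : WD A (ball 0 3)) :
    WD (fun y => (1 + ⟪gradient χ y, μ⟫) • A (y + χ y • μ)
      - ⟪gradient χ y, A (y + χ y • μ)⟫ • μ) (ball 0 3) := by
  intro φ h1 h2 h3
  obtain ⟨T, hT, hT'⟩ := exists_homeo hχ hμ
  have hφ' : ContDiff ℝ 1 (φ ∘ T.symm) := h1.comp hT'
  have h4 := hA (φ ∘ T.symm) hφ' (h2.comp_homeomorph T.symm) fun x hx => by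
    have : T.symm x ∈ tsupport φ := by
      rw [tsupport, Function.support_comp_eq_preimage, ← T.symm.preimage_closure] at hx
      exact hx
    have := chg_mem hχ hμ1 (h3 this)
    rwa [← hT, T.apply_symm_apply] at this
  have h5 := integral_image_eq_integral_abs_det_fderiv_smul (volume : Measure E) MeasurableSet.univ
    (fun y _ => (chg_fd hχ μ y).hasFDerivWithinAt)
    (by rw [← funext hT]; exact T.injective.injOn) fun x => fderiv ℝ (φ ∘ T.symm) x (A x)
  rw [← funext hT, image_univ, T.surjective.range_eq, Measure.restrict_univ, h4] at h5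
  rw [h5]
  congr 1
  funext y
  have h6 := (hφ'.differentiable one_ne_zero (y + χ y • μ)).hasFDerivAt.comp y (chg_fd hχ μ y)
  have e : (φ ∘ T.symm) ∘ (fun y => y + χ y • μ) = φ := by
    funext y; simp [← hT]
  rw [e] at h6
  rw [h6.fderiv, det_rk, abs_of_pos (chg_J hχ hμ y), ← map_smul,
    ContinuousLinearMap.comp_apply]
  congr 1
  simp only [rk, add_apply, ContinuousLinearMap.id_apply, ContinuousLinearMap.smulRight_apply,
    innerSL_apply_apply, inner_sub_right, real_inner_smul_right]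
  match_scalars <;> ring

theorem wd_univ {A B : E → E} (hA : Continuous A) (hB : Continuous B) (wA : WD A (ball 0 3))
    (wB : WD B (ball 0 3)) (h : ∀ y, 1 < ‖y‖ → A y = B y) : WD (fun y => A y - B y) univ := by
  intro φ h1 _ _
  let b : ContDiffBump (0 : E) := ⟨2, 5 / 2, by norm_num, by norm_num⟩
  have c1 : ContDiff ℝ 1 fun y => b y * φ y := b.contDiff.mul h1
  have c2 : HasCompactSupport fun y => b y * φ y := b.hasCompactSupport.mul_right
  have c3 : tsupport (fun y => b y * φ y) ⊆ ball 0 3 := by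
    refine (tsupport_mul_subset_left).trans ?_
    rw [b.tsupport_eq]
    exact closedBall_subset_ball (by norm_num [b])
  have i : ∀ {A : E → E}, Continuous A →
      Integrable fun x => fderiv ℝ (fun y => b y * φ y) x (A x) := fun hA =>
    ((c1.continuous_fderiv one_ne_zero).clm_apply hA).integrable_of_hasCompactSupport
      ((c2.fderiv ℝ).mono' fun x hx => subset_tsupport _ fun h0 => hx (by simp [h0]))
  have e := integral_sub (i hA) (i hB)
  rw [wA _ c1 c2 c3, wB _ c1 c2 c3, sub_zero] at e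
  rw [← e]
  congr 1
  funext y
  rw [← map_sub]
  rcases lt_or_ge 1 ‖y‖ with hy | hy
  · simp [h y hy]
  · have : (fun y => b y * φ y) =ᶠ[𝓝 y] φ :=
      (b.eventuallyEq_one_of_mem_ball (x := y) (by simp [b]; linarith)).mono fun z hz => by
        simp [show b z = 1 from hz]
    rw [this.fderiv_eq]

theorem grad_chg {χ : E → ℝ} {L : ℝ} (hχ : Cut χ L) {μ : E} (hμ1 : ‖μ‖ ≤ 1) {V : E → ℝ}
    {G : E → E} (hV : ∀ x ∈ ball (0 : E) 3, HasGradientAt V (G x) x) (y : E) :
    HasGradientAt (fun y => V (y + χ y • μ) - V y)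
      (G (y + χ y • μ) + ⟪μ, G (y + χ y • μ)⟫ • gradient χ y - G y) y := by
  rcases lt_or_ge 1 ‖y‖ with hy | hy
  · have : (fun y => V (y + χ y • μ) - V y) =ᶠ[𝓝 y] fun _ => 0 :=
      ((isOpen_lt continuous_const continuous_norm).mem_nhds hy |> Filter.eventually_mem_set.2).mono
        fun z hz => by simp [hχ.zero z hz]
    simp only [hχ.zero y hy, hχ.grad_zero y hy, zero_smul, add_zero, smul_zero, sub_self]
    exact (hasGradientAt_const y (0 : ℝ)).congr_of_eventuallyEq this
  · have hy3 : y ∈ ball (0 : E) 3 := by rw [mem_ball_zero_iff]; linarith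
    have h := (((hV _ (chg_mem hχ hμ1 hy3)).hasFDerivAt).comp y (chg_fd hχ μ y)).sub
      (hV y hy3).hasFDerivAt
    rw [hasGradientAt_iff_hasFDerivAt]
    refine h.congr_fderiv ?_
    ext v
    simp [rk, real_inner_comm μ, mul_comm]

end Crest.Agent.R246.F1
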