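import Crest.Agent.R246.F1.Defs

/-! Row 246, block F1: bumps, kernels and the retraction (plan in `F1/Defs.lean`). -/

set_option autoImplicit false
set_option linter.unusedSectionVars false

open MeasureTheory Metric Filter Topology Set Module
open scoped RealInnerProductSpace ENNReal ContDiff Real

noncomputable section

namespace Crest.Agent.R246.F1

variable {E : Type} [NormedAddCommGroup E] [InnerProductSpace ℝ E] [FiniteDimensional ℝ E]
  [MeasurableSpace E] [BorelSpace E]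

lemma ker_hcs {F : Type} [Zero F] [TopologicalSpace F] {f : E → F} {r : ℝ}
    (h : ∀ z, r ≤ ‖z‖ → f z = 0) : HasCompactSupport f :=
  HasCompactSupport.intro (isCompact_closedBall 0 r) fun z hz =>
    h z (le_of_lt (by simpa using hz))

/-- `ψ z = c * f (‖z‖^2)`, `f r = expNegInvGlue (1 - r)`, `κ z = 2 * c * deriv f (‖z‖^2)` -/
theorem exists_rad : ∃ ψ κ : E → ℝ, Rad ψ κ := by
  set f : ℝ → ℝ := fun r => expNegInvGlue (1 - r) with hf
  have hs : ContDiff ℝ ∞ f := expNegInvGlue.contDiff.comp (contDiff_const.sub contDiff_id)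
  have hs' : ContDiff ℝ ∞ (deriv f) := (contDiff_infty_iff_deriv.1 hs).2
  have hn : ContDiff ℝ ∞ fun z : E => ‖z‖ ^ 2 := contDiff_norm_sq ℝ
  have h0 : ∀ r, 1 ≤ r → f r = 0 := fun r hr => expNegInvGlue.zero_of_nonpos (by linarith)
  have h0' : ∀ r, 1 ≤ r → deriv f r = 0 := fun r hr =>
    IsLocalMin.deriv_eq_zero (Eventually.of_forall fun t => by
      rw [h0 r hr]; exact expNegInvGlue.nonneg _)
  have hsq : ∀ z : E, 1 ≤ ‖z‖ → 1 ≤ ‖z‖ ^ 2 := fun z hz => by nlinarith
  have hI : 0 < ∫ z : E, f (‖z‖ ^ 2) :=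
    Continuous.integral_pos_of_hasCompactSupport_nonneg_nonzero (x := 0) (hs.comp hn).continuous
      (ker_hcs fun z hz => h0 _ (hsq z hz)) (fun z => expNegInvGlue.nonneg _)
      (by simp [hf])
  set c := (∫ z : E, f (‖z‖ ^ 2))⁻¹ with hc
  refine ⟨fun z => c * f (‖z‖ ^ 2), fun z => 2 * c * deriv f (‖z‖ ^ 2),
    (contDiff_const.mul (hs.comp hn)).of_le (by norm_cast),
    (contDiff_const.mul (hs'.comp hn)).of_le (by exact_mod_cast le_top),
    fun z hz => by simp [h0 _ (hsq z hz)], fun z hz => by simp [h0' _ (hsq z hz)], ?_, fun z => ?_⟩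
  · rw [integral_const_mul, hc, inv_mul_cancel₀ hI.ne']
  · have h1 := ((hs.differentiable (by simp)) (‖z‖ ^ 2)).hasDerivAt.comp_hasFDerivAt z
      (hasStrictFDerivAt_norm_sq z).hasFDerivAt
    refine (h1.const_mul c).congr_fderiv ?_
    ext v
    simp
    ring

lemma ker_rk : ContDiff ℝ 1 fun z : E => rk z z :=
  ((ContinuousLinearMap.smulRightL ℝ E E).contDiff.comp
    (innerSL ℝ : E →L[ℝ] E →L[ℝ] ℝ).contDiff).clm_apply contDiff_id

theorem Rad.gk0 {ψ κ : E → ℝ} (h : Rad ψ κ) : GK (k0 ψ) :=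
  ⟨(h.sψ.of_le (by norm_num)).smul contDiff_const, fun z hz => by simp [k0, h.zψ z hz]⟩

theorem Rad.gk2 {ψ κ : E → ℝ} (h : Rad ψ κ) : GK (k2 ψ κ) :=
  ⟨(h.sκ.smul ker_rk).add h.gk0.smooth, fun z hz => by simp [k2, h.zψ z hz, h.zκ z hz]⟩

theorem Rad.int_k0 {ψ κ : E → ℝ} (h : Rad ψ κ) :
    ∫ z, k0 ψ z = ContinuousLinearMap.id ℝ E := by
  simp only [k0]
  rw [integral_smul_const, h.int, one_smul]

/-- `k2 ψ κ z = fderiv ℝ (fun z => ψ z • z) z` -/
theorem Rad.int_k2 {ψ κ : E → ℝ} (h : Rad ψ κ) : ∫ z, k2 ψ κ z = 0 := by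
  have hi : Integrable (k2 ψ κ) :=
    h.gk2.smooth.continuous.integrable_of_hasCompactSupport (ker_hcs h.gk2.supp)
  have hd : ∀ z, HasFDerivAt (fun z => ψ z • z) (k2 ψ κ z) z := fun z => by
    refine ((h.der z).smul (hasFDerivAt_id z)).congr_fderiv ?_
    ext v
    simp [k2, rk, add_comm, mul_smul]
  ext v
  rw [ContinuousLinearMap.integral_apply hi]
  have := integral_bilinear_hasFDerivAt_right_eq_neg_left_of_integrable (μ := (volume : Measure E))
    (f := fun _ : E => (1 : ℝ)) (f' := fun _ => 0) (g := fun z => ψ z • z) (g' := k2 ψ κ) (v := v)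
    (B := ContinuousLinearMap.lsmul ℝ ℝ) (by simp) (by simpa using hi.apply_continuousLinearMap v)
    (by
      simp only [ContinuousLinearMap.lsmul_apply, one_smul]
      exact (h.sψ.continuous.smul continuous_id).integrable_of_hasCompactSupport
        (ker_hcs (r := 1) fun z hz => by simp [h.zψ z hz]))
    (fun x _ => hasFDerivAt_const _ _) (fun x _ => hd x)
  simpa using this

theorem rt_of_le {x : E} (h : ‖x‖ ≤ 3) : rt x = x := by
  rw [rt, max_eq_left (by linarith), inv_one, one_smul]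

theorem norm_rt_of_ge {x : E} (h : 3 ≤ ‖x‖) : ‖rt x‖ = 3 := by
  have : 0 < ‖x‖ := by linarith
  rw [rt, max_eq_right (by linarith), norm_smul, Real.norm_of_nonneg (by positivity)]
  field_simp

theorem norm_rt_le (x : E) : ‖rt x‖ ≤ 3 := by
  rcases le_total ‖x‖ 3 with h | h
  · rwa [rt_of_le h]
  · exact (norm_rt_of_ge h).le

theorem rt_lip (x y : E) : ‖rt x - rt y‖ ≤ 2 * ‖x - y‖ := by
  have hy := norm_rt_le y
  unfold rt at *
  have hab : |max 1 (‖x‖ / 3) - max 1 (‖y‖ / 3)| ≤ ‖x - y‖ / 3 := by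
    refine (abs_max_sub_max_le_max _ _ _ _).trans (max_le (by simp; positivity) ?_)
    rw [← sub_div, abs_div, abs_of_pos (show (0 : ℝ) < 3 by norm_num)]
    gcongr
    exact abs_norm_sub_norm_le x y
  have ha : 1 ≤ max 1 (‖x‖ / 3) := le_max_left _ _
  have hb : 1 ≤ max 1 (‖y‖ / 3) := le_max_left _ _
  generalize max 1 (‖x‖ / 3) = a at *
  generalize max 1 (‖y‖ / 3) = b at *
  have e : a⁻¹ • x - b⁻¹ • y = a⁻¹ • ((x - y) - (a - b) • b⁻¹ • y) := by
    have : a ≠ 0 := by linarith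
    have : b ≠ 0 := by linarith
    match_scalars <;> field_simp
    ring
  rw [e, norm_smul, Real.norm_of_nonneg (by positivity)]
  have h1 : ‖(x - y) - (a - b) • b⁻¹ • y‖ ≤ 2 * ‖x - y‖ := by
    refine (norm_sub_le _ _).trans ?_
    rw [norm_smul, Real.norm_eq_abs]
    have := mul_le_mul hab hy (norm_nonneg _) (by positivity)
    linarith
  exact (mul_le_of_le_one_left (norm_nonneg _) (inv_le_one_of_one_le₀ ha)).trans h1

theorem exists_cut : ∃ (χ : E → ℝ) (L : ℝ), Cut χ L := by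
  let b : ContDiffBump (0 : E) := ⟨1 / 2, 1, by norm_num, by norm_num⟩
  have hs : ContDiff ℝ 2 b := b.contDiff
  have hz : ∀ y : E, 1 ≤ ‖y‖ → b y = 0 := fun y hy => b.zero_of_le_dist (by simpa using hy)
  have hg : ContDiff ℝ 1 (gradient b) :=
    (InnerProductSpace.toDual ℝ E).symm.contDiff.comp (hs.fderiv_right (by norm_num))
  have hgz : ∀ y : E, 1 ≤ ‖y‖ → gradient b y = 0 := fun y hy => by
    have : IsLocalMin b y := Eventually.of_forall fun t => by rw [hz y hy]; exact b.nonneg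
    simp [gradient, this.fderiv_eq_zero]
  obtain ⟨L1, h1⟩ := hs.lipschitzWith_of_hasCompactSupport b.hasCompactSupport (by norm_num)
  obtain ⟨L2, h2⟩ := hg.lipschitzWith_of_hasCompactSupport (ker_hcs hgz) (by norm_num)
  obtain ⟨M, hM⟩ := (ker_hcs hgz).exists_bound_of_continuous hg.continuous
  have hM0 : 0 ≤ M := (norm_nonneg _).trans (hM 0)
  have := L1.2
  have := L2.2
  refine ⟨b, L1 + L2 + 2 * M + 1, hs, fun y hy => hz y hy.le,
    b.one_of_mem_closedBall (by simp [b]), fun y => ?_, by positivity, fun x y => ?_,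
    fun y => (hM y).trans (by linarith [L1.coe_nonneg, L2.coe_nonneg]), fun y hy => hgz y hy.le,
    fun α hα hα1 x y => ?_⟩
  · rw [abs_of_nonneg b.nonneg]; exact b.le_one
  · have := h1.dist_le_mul x y
    rw [Real.dist_eq, dist_eq_norm] at this
    refine this.trans ?_
    gcongr
    linarith [L2.coe_nonneg]
  · rcases le_total ‖x - y‖ 1 with h | h
    · have := h2.dist_le_mul x y
      rw [dist_eq_norm, dist_eq_norm] at this
      refine this.trans (mul_le_mul (by linarith [L1.coe_nonneg]) ?_ (norm_nonneg _)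
        (by positivity))
      exact Real.self_le_rpow_of_le_one (norm_nonneg _) h hα1.le
    · have h3 : 1 ≤ ‖x - y‖ ^ α := Real.one_le_rpow h hα.le
      refine (norm_sub_le _ _).trans ?_
      refine le_trans ?_ (le_mul_of_one_le_right (by positivity) h3)
      linarith [hM x, hM y, L1.coe_nonneg, L2.coe_nonneg]

theorem exists_x0 : ∃ x₀ : E, ‖x₀‖ ≤ 3 ∧ ∀ p : E → E, (∀ x, 1 < ‖x‖ → p x = 0) → p x₀ = 0 := by
  rcases subsingleton_or_nontrivial E with h | h
  · exact ⟨0, by simp, fun p _ => Subsingleton.elim _ _⟩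
  · obtain ⟨x, hx⟩ := exists_norm_eq E (show (0 : ℝ) ≤ 2 by norm_num)
    exact ⟨x, by linarith, fun p hp => hp x (by linarith)⟩

end Crest.Agent.R246.F1
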