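import Crest.Agent.R246.F1.Est
import Crest.Agent.R246.F1.Ker

/-! Row 246, block F1: the representation formula (plan in `F1/Defs.lean`). -/

set_option autoImplicit false
set_option linter.unusedSectionVars false

open MeasureTheory Metric Filter Topology Set Module
open scoped RealInnerProductSpace ENNReal ContDiff Real

noncomputable section

namespace Crest.Agent.R246.F1

variable {E : Type} [NormedAddCommGroup E] [InnerProductSpace ℝ E] [FiniteDimensional ℝ E]
  [MeasurableSpace E] [BorelSpace E]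

lemma rep_k2 (ψ κ : E → ℝ) (z a e : E) :
    ⟪e, k2 ψ κ z a⟫ = κ z * ⟪z, e⟫ * ⟪z, a⟫ + ψ z * ⟪e, a⟫ := by
  simp only [k2, rk, add_apply, smul_apply, ContinuousLinearMap.smulRight_apply, innerSL_apply_apply,
    ContinuousLinearMap.id_apply, inner_add_right, real_inner_smul_right, real_inner_comm z e]
  ring

/-- test with `φ y = ψ z * ⟪e, z⟫`, `z = s⁻¹ • (x - y)` -/
theorem rep_weak {ψ κ : E → ℝ} (h : Rad ψ κ) {A : E → E} (hA : Continuous A) (hw : WD A univ)
    {s : ℝ} (hs : 0 < s) (x : E) : av (k2 ψ κ) A s x = 0 := by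
  refine ext_inner_left ℝ fun e => ?_
  rw [inner_zero_right, av, ← integral_inner (av_integrable h.gk2 hA s x)]
  have hθ : ∀ y, HasFDerivAt (fun y : E => s⁻¹ • (x - y))
      (s⁻¹ • -ContinuousLinearMap.id ℝ E) y := fun y =>
    ((hasFDerivAt_id y).const_sub x).const_smul s⁻¹
  have hθ' : ContDiff ℝ 1 fun y : E => s⁻¹ • (x - y) := by fun_prop
  set φ : E → ℝ := fun y => ψ (s⁻¹ • (x - y)) * ⟪e, s⁻¹ • (x - y)⟫ with hφ
  have hd : ∀ y a, fderiv ℝ φ y a = -s⁻¹ * ⟪e, k2 ψ κ (s⁻¹ • (x - y)) a⟫ := fun y a => by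
    have h1 := ((h.der _).comp y (hθ y)).mul ((innerSL ℝ e).hasFDerivAt.comp y (hθ y))
    rw [show fderiv ℝ φ y = _ from h1.fderiv, rep_k2, real_inner_comm e]
    simp only [Function.comp_apply]
    generalize s⁻¹ • (x - y) = z
    simp
    ring
  have h1 := hw φ (((h.sψ.of_le (by norm_num)).comp hθ').mul (contDiff_const.inner ℝ hθ'))
    (est_hcs (r := ‖x‖ + s) fun y hy => by
      rw [hφ]
      beta_reduce
      rw [h.zψ, zero_mul]
      rw [norm_smul, norm_inv, Real.norm_of_nonneg hs.le, ← div_eq_inv_mul, le_div_iff₀ hs,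
        norm_sub_rev]
      linarith [norm_sub_norm_le y x]) (subset_univ _)
  simp only [hd] at h1
  rw [integral_const_mul, mul_eq_zero, or_iff_right (by simpa using hs.ne')] at h1
  have h2 := Measure.integral_comp_smul (volume : Measure E)
    (fun y => ⟪e, k2 ψ κ (s⁻¹ • y) (A (x - y))⟫) s
  simp only [smul_smul, inv_mul_cancel₀ hs.ne', one_smul] at h2
  rw [h2, ← integral_sub_left_eq_self _ volume x]
  simp only [sub_sub_cancel, h1, smul_zero]

lemma rep_hd {d : E → ℝ} {p : E → E} (hd : ∀ x, HasGradientAt d (p x) x) :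
    Continuous d := continuous_iff_continuousAt.2 fun x => (hd x).continuousAt

theorem rep_ibp {ψ κ : E → ℝ} (h : Rad ψ κ) {d : E → ℝ} {p : E → E} (hp : Continuous p)
    (hd : ∀ x, HasGradientAt d (p x) x) (e x : E) {s : ℝ} (hs : 0 < s) :
    ⟪e, av (k0 ψ) p s x⟫ = s⁻¹ * ∫ z, κ z * ⟪z, e⟫ * d (x - s • z) := by
  have hdc := rep_hd hd
  have c1 := h.sψ.continuous
  have c2 := h.sκ.continuous
  have hg : ∀ z, HasFDerivAt (fun z => d (x - s • z))
      ((InnerProductSpace.toDual ℝ E (p (x - s • z))).comp (-(s • ContinuousLinearMap.id ℝ E))) z :=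
    fun z => (hd _).hasFDerivAt.comp z (((hasFDerivAt_id z).const_smul s).const_sub x)
  have := integral_bilinear_hasFDerivAt_right_eq_neg_left_of_integrable (μ := (volume : Measure E))
    (v := e) (B := ContinuousLinearMap.mul ℝ ℝ) ?_ ?_ ?_ (fun z _ => h.der z) (fun z _ => hg z)
  · rw [av, ← integral_inner (av_integrable h.gk0 hp s x), eq_inv_mul_iff_mul_eq₀ hs.ne',
      ← integral_const_mul]
    simp only [ContinuousLinearMap.mul_apply', smul_apply, innerSL_apply_apply, smul_eq_mul] at this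
    rw [← neg_inj, ← this, ← integral_neg]
    congr 1
    funext z
    simp [k0, real_inner_smul_right, real_inner_comm e]
    ring
  · simp only [ContinuousLinearMap.mul_apply', smul_apply, innerSL_apply_apply, smul_eq_mul]
    exact Continuous.integrable_of_hasCompactSupport (by fun_prop)
      (est_hcs (r := 1) fun z hz => by simp [h.zκ z hz])
  · simp only [ContinuousLinearMap.mul_apply', ContinuousLinearMap.comp_apply,
      InnerProductSpace.toDual_apply_apply]
    exact Continuous.integrable_of_hasCompactSupport (by fun_prop)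
      (est_hcs (r := 1) fun z hz => by simp [h.zψ z hz])
  · simp only [ContinuousLinearMap.mul_apply']
    exact Continuous.integrable_of_hasCompactSupport (by fun_prop)
      (est_hcs (r := 1) fun z hz => by simp [h.zψ z hz])

theorem rep_dn {ψ κ : E → ℝ} (h : Rad ψ κ) {d : E → ℝ} {p : E → E} (hp : Continuous p) {M : ℝ}
    (hM : ∀ x, ‖p x‖ ≤ M) (hd : ∀ x, HasGradientAt d (p x) x) (e x : E) (s : ℝ) :
    HasDerivAt (fun s : ℝ => ∫ z, κ z * ⟪z, e⟫ * d (x - s • z))
      (-∫ z, κ z * ⟪z, e⟫ * ⟪z, p (x - s • z)⟫) s := by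
  have hdc := rep_hd hd
  have c2 := h.sκ.continuous
  rw [← integral_neg]
  refine (hasDerivAt_integral_of_dominated_loc_of_deriv_le (μ := (volume : Measure E))
    (F := fun (s : ℝ) z => κ z * ⟪z, e⟫ * d (x - s • z))
    (F' := fun (s : ℝ) z => -(κ z * ⟪z, e⟫ * ⟪z, p (x - s • z)⟫))
    (bound := fun z => ‖κ z * ⟪z, e⟫‖ * (‖z‖ * M)) univ_mem
    (Eventually.of_forall fun s => Continuous.aestronglyMeasurable (by fun_prop)) ?_
    (Continuous.aestronglyMeasurable (by fun_prop)) (Eventually.of_forall fun z t _ => ?_) ?_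
    (Eventually.of_forall fun z t _ => ?_)).2
  · exact Continuous.integrable_of_hasCompactSupport (by fun_prop)
      (est_hcs (r := 1) fun z hz => by simp [h.zκ z hz])
  · rw [norm_neg, norm_mul]
    gcongr
    exact (norm_inner_le_norm _ _).trans (by gcongr; exact hM _)
  · exact Continuous.integrable_of_hasCompactSupport (by fun_prop)
      (est_hcs (r := 1) fun z hz => by simp [h.zκ z hz])
  · have h1 := ((hd (x - t • z)).hasFDerivAt.comp_hasDerivAt t
      (((hasDerivAt_id t).smul_const z).const_sub x)).const_mul (κ z * ⟪z, e⟫)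
    refine h1.congr_deriv ?_
    simp [real_inner_comm z]

theorem rep_deriv {ψ κ : E → ℝ} (h : Rad ψ κ) {d : E → ℝ} {p : E → E} (hp : Continuous p) {M : ℝ}
    (hM : ∀ x, ‖p x‖ ≤ M) (hd : ∀ x, HasGradientAt d (p x) x) (e x : E) {s : ℝ} (hs : 0 < s) :
    HasDerivAt (fun s : ℝ => ⟪e, av (k0 ψ) p s x⟫) (-(s⁻¹ * ⟪e, av (k2 ψ κ) p s x⟫)) s := by
  have c1 := h.sψ.continuous
  have c2 := h.sκ.continuous
  have h1 := (hasDerivAt_inv hs.ne').mul (rep_dn h hp hM hd e x s)
  have e1 : ⟪e, av (k2 ψ κ) p s x⟫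
      = (∫ z, κ z * ⟪z, e⟫ * ⟪z, p (x - s • z)⟫) + ⟪e, av (k0 ψ) p s x⟫ := by
    have i0 := av_integrable h.gk0 hp s x
    rw [av, av, ← integral_inner (av_integrable h.gk2 hp s x), ← integral_inner i0,
      ← integral_add _ (i0.const_inner e)]
    · congr 1
      funext z
      rw [rep_k2]
      simp [k0, real_inner_smul_right]
    · exact Continuous.integrable_of_hasCompactSupport (by fun_prop)
        (est_hcs (r := 1) fun z hz => by simp [h.zκ z hz])
  refine (h1.congr_deriv ?_).congr_of_eventuallyEq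
    ((lt_mem_nhds hs).mono fun t ht => rep_ibp h hp hd e x ht)
  rw [e1, rep_ibp h hp hd e x hs]
  field_simp
  ring

theorem rep {ψ κ : E → ℝ} (h : Rad ψ κ) {α : ℝ} (hα : 0 < α) (hα1 : α < 1) {d : E → ℝ}
    {p F : E → E} {H M : ℝ} (hH : 0 ≤ H) (hp : Hol α H p) (hF : Hol α H F) (hM : ∀ x, ‖p x‖ ≤ M)
    (hd : ∀ x, HasGradientAt d (p x) x) (hw : WD (fun x => p x - F x) univ) (x y : E) :
    p x - p y = ∫ s in Ioi (0 : ℝ), s⁻¹ • (av (k2 ψ κ) F s x - av (k2 ψ κ) F s y) := by
  have cp := hp.continuous hα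
  have cF := hF.continuous hα
  obtain ⟨C, -, hC⟩ := av_int h.gk2 h.int_k2 hα hα1
  have hI := (hC F H hH hF x y).1
  have e2 : ∀ s, 0 < s → ∀ x, av (k2 ψ κ) p s x = av (k2 ψ κ) F s x := fun s hs x => by
    rw [← sub_eq_zero, ← av_sub h.gk2 cp cF]
    exact rep_weak h (cp.sub cF) hw hs x
  have e0 : ∀ x, av (k0 ψ) p 0 x = p x := fun x => by
    simp [av, k0, integral_smul_const, h.int]
  refine ext_inner_left ℝ fun e => ?_
  rw [← integral_inner hI]
  have hlim : Tendsto (fun s => av (k0 ψ) p s x - av (k0 ψ) p s y) atTop (𝓝 0) := by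
    obtain ⟨C, -, hC⟩ := av_far h.gk0 hα
    refine squeeze_zero_norm' ((eventually_gt_atTop ‖x - y‖).mono fun s hs =>
      hC p H hH hp s ((norm_nonneg _).trans_lt hs) x y hs.le) ?_
    have := (tendsto_rpow_neg_atTop (show 0 < 1 - α by linarith)).const_mul (C * H * ‖x - y‖)
    simpa using this
  have key := integral_Ioi_of_hasDerivAt_of_tendsto
    (f := fun s => ⟪e, av (k0 ψ) p s x - av (k0 ψ) p s y⟫)
    (f' := fun s => -⟪e, s⁻¹ • (av (k2 ψ κ) F s x - av (k2 ψ κ) F s y)⟫) (a := 0) (m := 0)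
    (continuous_const.inner ((av_cont h.gk0 cp x).sub (av_cont h.gk0 cp y))).continuousWithinAt
    (fun s hs => ?_) (hI.const_inner e).neg (by simpa using tendsto_const_nhds.inner hlim)
  · rw [integral_neg, e0, e0, zero_sub, neg_inj] at key
    exact key.symm
  · simp only [inner_sub_right]
    refine ((rep_deriv h cp hM hd e x hs).sub (rep_deriv h cp hM hd e y hs)).congr_deriv ?_
    rw [e2 s hs, e2 s hs, real_inner_smul_right, inner_sub_right]
    ring

end Crest.Agent.R246.F1
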