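import Crest.Agent.R246.F1.Hol
import Crest.Agent.R246.F1.Rep

/-! Row 246, block F1: the operator `∇Δ⁻¹div` on Hölder functions (plan in `F1/Defs.lean`). -/

set_option autoImplicit false
set_option linter.unusedSectionVars false

open MeasureTheory Metric Filter Topology Set Module
open scoped RealInnerProductSpace ENNReal ContDiff Real

noncomputable section

namespace Crest.Agent.R246.F1

variable {E : Type} [NormedAddCommGroup E] [InnerProductSpace ℝ E] [FiniteDimensional ℝ E]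
  [MeasurableSpace E] [BorelSpace E]

lemma Hol.mono {F : Type} [NormedAddCommGroup F] {α H H' : ℝ} {f : E → F} (h : Hol α H f)
    (hH : H ≤ H') : Hol α H' f := fun x y =>
  (h x y).trans (mul_le_mul_of_nonneg_right hH (by positivity))

lemma Hol.comp {F : Type} [NormedAddCommGroup F] {α H : ℝ} {f : E → F} (h : Hol α H f)
    (hα : 0 < α) (hα1 : α < 1) (hH : 0 ≤ H) {θ : E → E} (hθ : ∀ x y, ‖θ x - θ y‖ ≤ 2 * ‖x - y‖) :
    Hol α (2 * H) fun x => f (θ x) := by
  intro x y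
  refine (h _ _).trans ?_
  have h1 : ‖θ x - θ y‖ ^ α ≤ (2 * ‖x - y‖) ^ α :=
    Real.rpow_le_rpow (norm_nonneg _) (hθ x y) hα.le
  rw [Real.mul_rpow (by norm_num) (norm_nonneg _)] at h1
  have h2 : (2 : ℝ) ^ α ≤ 2 := by
    simpa using Real.rpow_le_rpow_of_exponent_le (x := 2) (by norm_num) hα1.le
  have h3 : 0 ≤ ‖x - y‖ ^ α := by positivity
  calc H * ‖θ x - θ y‖ ^ α ≤ H * (2 * ‖x - y‖ ^ α) := by
        refine mul_le_mul_of_nonneg_left (h1.trans ?_) hH
        exact mul_le_mul_of_nonneg_right h2 h3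
    _ = _ := by ring

theorem exists_R {α : ℝ} (hα : 0 < α) (hα1 : α < 1) : ∃ R : HY α E E →L[ℝ] HY α E E,
    ∀ (d : E → ℝ) (p F : HY α E E), (∀ x, HasGradientAt d (p.fn x) x) →
      (∀ x, 1 < ‖x‖ → p.fn x = 0) → WD (fun x => p.fn x - F.fn x) univ → p = R F := by
  obtain ⟨ψ, κ, h⟩ := exists_rad (E := E)
  obtain ⟨x₀, hx₀, hx₀'⟩ := exists_x0 (E := E)
  obtain ⟨C, hC, hS⟩ := av_int h.gk2 h.int_k2 hα hα1
  set S : HY α E E → E → E := fun F x =>
    ∫ s in Ioi (0 : ℝ), s⁻¹ • (av (k2 ψ κ) F.fn s x - av (k2 ψ κ) F.fn s x₀) with hSdef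
  have hI : ∀ (F : HY α E E) x y, IntegrableOn
      (fun s : ℝ => s⁻¹ • (av (k2 ψ κ) F.fn s x - av (k2 ψ κ) F.fn s y)) (Ioi 0) :=
    fun F x y => (hS _ _ (norm_nonneg _) F.hol x y).1
  have hc : ∀ F : HY α E E, Continuous F.fn := fun F => F.hol.continuous hα
  have hhol : ∀ F : HY α E E, Hol α (C * ‖F‖) (S F) := by
    intro F x y
    refine le_trans (le_of_eq ?_) (hS _ _ (norm_nonneg _) F.hol x y).2
    rw [hSdef]
    beta_reduce
    rw [← integral_sub (hI F _ _) (hI F _ _)]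
    congr 2
    funext s
    rw [← smul_sub, sub_sub_sub_cancel_right]
  have b1 : ∀ (F : HY α E E) x, ‖S F (rt x)‖ ≤ 6 * C * ‖F‖ := by
    intro F x
    refine (hS _ _ (norm_nonneg _) F.hol _ _).2.trans ?_
    have h1 : ‖rt x - x₀‖ ≤ 6 := (norm_sub_le _ _).trans (by linarith [norm_rt_le x])
    have h2 : ‖rt x - x₀‖ ^ α ≤ 6 :=
      (Real.rpow_le_rpow (norm_nonneg _) h1 hα.le).trans (by
        simpa using Real.rpow_le_rpow_of_exponent_le (x := 6) (by norm_num) hα1.le)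
    calc C * ‖F‖ * ‖rt x - x₀‖ ^ α ≤ C * ‖F‖ * 6 := by gcongr
      _ = _ := by ring
  have b2 : ∀ F : HY α E E, Hol α (6 * C * ‖F‖) fun x => S F (rt x) := fun F =>
    ((hhol F).comp hα hα1 (by positivity) rt_lip).mono (by
      have : 0 ≤ C * ‖F‖ := by positivity
      linarith)
  have hadd : ∀ (F G : HY α E E) x, S (F + G) x = S F x + S G x := by
    intro F G x
    simp only [hSdef]
    rw [← integral_add (hI F _ _) (hI G _ _)]
    congr 1
    funext s
    have e : (F + G).fn = fun y => F.fn y + G.fn y := rfl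
    rw [e, av_add h.gk2 (hc F) (hc G), av_add h.gk2 (hc F) (hc G), ← smul_add]
    congr 1; abel
  have hsm : ∀ (c : ℝ) (F : HY α E E) x, S (c • F) x = c • S F x := by
    intro c F x
    simp only [hSdef]
    rw [← integral_smul]
    congr 1
    funext s
    have e : (c • F).fn = fun y => c • F.fn y := rfl
    rw [e, av_smul, av_smul, ← smul_sub, smul_comm]
  refine ⟨LinearMap.mkContinuous ⟨⟨fun F => HY.mk _ _ (b1 F) (b2 F),
    fun F G => HY.ext fun x => hadd F G _⟩, fun c F => HY.ext fun x => hsm c F _⟩ (6 * C)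
    fun F => HY.norm_le _ (b1 F) (b2 F), fun d p F hd h0 hw => HY.ext fun x => ?_⟩
  change p.fn x = S F (rt x)
  have hr := rep h hα hα1 (H := max ‖p‖ ‖F‖) (le_max_of_le_left (norm_nonneg _))
    (p.hol.mono (le_max_left _ _)) (F.hol.mono (le_max_right _ _)) p.norm_fn_le hd hw (rt x) x₀
  rw [hx₀' _ h0, sub_zero] at hr
  refine Eq.trans ?_ hr
  rcases le_total ‖x‖ 3 with h3 | h3
  · rw [rt_of_le h3]
  · rw [h0 x (by linarith), h0 (rt x) (by rw [norm_rt_of_ge h3]; norm_num)]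

end Crest.Agent.R246.F1
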