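import Crest.Agent.R246.F1.Ift
import Crest.Agent.R246.F1.Op
import Crest.Agent.R246.F1.Chg

/-! Row 246, block F1: the parameter trick (plan in `F1/Defs.lean`). -/

set_option autoImplicit false
set_option linter.unusedSectionVars false

open MeasureTheory Metric Filter Topology Set Module
open scoped RealInnerProductSpace ENNReal ContDiff Real

noncomputable section

namespace Crest.Agent.R246.F1

variable {E : Type} [NormedAddCommGroup E] [InnerProductSpace ℝ E] [FiniteDimensional ℝ E]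
  [MeasurableSpace E] [BorelSpace E]

/-- `(1 + |p|²)^{-1/2} - 1` -/
def sg (p : E) : ℝ := (√(1 + ‖p‖ ^ 2))⁻¹ - 1

lemma sg_zero : sg (0 : E) = 0 := by simp [sg]

lemma sg_lip (p q : E) : ‖sg p - sg q‖ ≤ ‖p - q‖ := by
  unfold sg
  set a := √(1 + ‖p‖ ^ 2)
  set b := √(1 + ‖q‖ ^ 2)
  have ha2 : a ^ 2 = 1 + ‖p‖ ^ 2 := Real.sq_sqrt (by positivity)
  have hb2 : b ^ 2 = 1 + ‖q‖ ^ 2 := Real.sq_sqrt (by positivity)
  have ha1 : 1 ≤ a := Real.one_le_sqrt.2 (by nlinarith [sq_nonneg ‖p‖])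
  have hb1 : 1 ≤ b := Real.one_le_sqrt.2 (by nlinarith [sq_nonneg ‖q‖])
  have hap : ‖p‖ ≤ a := Real.le_sqrt_of_sq_le (by linarith)
  have hbq : ‖q‖ ≤ b := Real.le_sqrt_of_sq_le (by linarith)
  have h1 : |a - b| * (a + b) ≤ ‖p - q‖ * (a + b) := by
    have e : |a - b| * (a + b) = |‖p‖ - ‖q‖| * (‖p‖ + ‖q‖) := by
      rw [← abs_of_nonneg (show 0 ≤ a + b by linarith),
        ← abs_of_nonneg (show 0 ≤ ‖p‖ + ‖q‖ by positivity), ← abs_mul, ← abs_mul]
      congr 1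
      nlinarith
    rw [e]
    exact mul_le_mul (abs_norm_sub_norm_le p q) (by linarith) (by positivity) (norm_nonneg _)
  have h2 : |a - b| ≤ ‖p - q‖ := le_of_mul_le_mul_right h1 (by linarith)
  have e : a⁻¹ - 1 - (b⁻¹ - 1) = (b - a) / (a * b) := by field_simp; ring
  rw [e, Real.norm_eq_abs, abs_div, abs_sub_comm, abs_of_pos (show 0 < a * b by positivity)]
  exact (div_le_self (abs_nonneg _) (by nlinarith)).trans h2

lemma sg_eq (p : E) :
    sg p + 2⁻¹ * (sg p * sg p + ⟪p + sg p • p, p + sg p • p⟫) = 0 := by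
  have e : p + sg p • p = (√(1 + ‖p‖ ^ 2))⁻¹ • p := by simp [sg, sub_smul]
  rw [e, real_inner_smul_left, real_inner_smul_right, real_inner_self_eq_norm_sq]
  unfold sg
  set a := √(1 + ‖p‖ ^ 2)
  have ha2 : a ^ 2 = 1 + ‖p‖ ^ 2 := Real.sq_sqrt (by positivity)
  have ha : 0 < a := Real.sqrt_pos.2 (by positivity)
  have : ‖p‖ ^ 2 = a ^ 2 - 1 := by linarith
  rw [this]
  field_simp
  ring

lemma Cut.theta_lip {χ : E → ℝ} {L : ℝ} (hχ : Cut χ L) {μ : E} (hμ : L * ‖μ‖ ≤ 1 / 2) (x y : E) :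
    ‖(x + χ x • μ) - (y + χ y • μ)‖ ≤ 2 * ‖x - y‖ := by
  have e : (x + χ x • μ) - (y + χ y • μ) = (x - y) + (χ x - χ y) • μ := by
    rw [sub_smul]; abel
  rw [e]
  refine (norm_add_le _ _).trans ?_
  rw [norm_smul, Real.norm_eq_abs]
  have h1 := mul_le_mul_of_nonneg_right (hχ.lip x y) (norm_nonneg μ)
  nlinarith [norm_nonneg (x - y)]

theorem core {α : ℝ} (hα : 0 < α) (hα1 : α < 1) : ∃ ε : ℝ, 0 < ε ∧ ∀ (V : E → ℝ) (G : E → E),
    (∀ x, ‖G x‖ ≤ ε) → Hol α ε G → (∀ x ∈ ball (0 : E) 3, HasGradientAt V (G x) x) →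
    WD (fun x => (√(1 + ‖G x‖ ^ 2))⁻¹ • G x) (ball 0 3) →
    ∃ δ : ℝ, 0 < δ ∧ ContDiffOn ℝ ∞ G (ball 0 δ) := by
  obtain ⟨R, hR⟩ := exists_R (E := E) hα hα1
  obtain ⟨χ, L, hχ⟩ := exists_cut (E := E)
  set c : HY α E E := HY.mk (gradient χ) L hχ.grad_le (hχ.grad_hol α hα hα1) with hc
  obtain ⟨δ, hδ, Ψ, hΨ⟩ := ift (NN_O2 R c).sm (NN_O2 R c).d
  refine ⟨δ / 4, by positivity, fun V G hG hH hV hw => ?_⟩
  have hL := hχ.pos
  have hs1 : ∀ x, ‖sg (G x)‖ ≤ δ / 4 := fun x => by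
    simpa [sg_zero] using (sg_lip (G x) 0).trans (by simpa using hG x)
  have hs2 : Hol α (δ / 4) fun x => sg (G x) := fun x y => (sg_lip _ _).trans (hH x y)
  set G₀ : HY α E E := HY.mk G _ hG hH with hG₀
  set σ₀ : HY α E ℝ := HY.mk _ _ hs1 hs2 with hσ₀
  set q : HY α E E := G₀ - R (-sm σ₀ G₀) with hq
  have hA : ∀ p : E, p + sg p • p = (√(1 + ‖p‖ ^ 2))⁻¹ • p := fun p => by simp [sg, sub_smul]
  have key : ∀ μ : E, ‖μ‖ < min (min δ 1) (1 / (2 * L)) →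
      HY.ev 0 (Ψ (μ, q, 0)).2.1 = G μ ∧ ContDiffAt ℝ ω Ψ (μ, q, 0) := by
    intro μ hμ
    simp only [lt_min_iff] at hμ
    obtain ⟨⟨hμ0, hμ1⟩, hμ2⟩ := hμ
    have hμL : L * ‖μ‖ ≤ 1 / 2 := by
      rw [lt_div_iff₀ (by positivity)] at hμ2
      linarith
    have hθ := hχ.theta_lip hμL
    have b1 : ∀ x, ‖G (x + χ x • μ)‖ ≤ 2 * (δ / 4) := fun x => (hG _).trans (by linarith)
    have b2 : ∀ x, ‖sg (G (x + χ x • μ))‖ ≤ 2 * (δ / 4) := fun x => (hs1 _).trans (by linarith)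
    have c1 := hH.comp hα hα1 (by positivity) hθ
    have c2 := hs2.comp hα hα1 (by positivity) hθ
    set P : HY α E E := HY.mk _ _ b1 c1 with hP
    set σ : HY α E ℝ := HY.mk _ _ b2 c2 with hσ
    have hz : ‖((μ, P, σ) : E × HY α E E × HY α E ℝ)‖ < δ := by
      have n1 : ‖P‖ ≤ 2 * (δ / 4) := HY.norm_le _ b1 c1
      have n2 : ‖σ‖ ≤ 2 * (δ / 4) := HY.norm_le _ b2 c2
      simp only [Prod.norm_mk, max_lt_iff]
      exact ⟨hμ0, by linarith, by linarith⟩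
    have hcA : Continuous fun x => (√(1 + ‖G x‖ ^ 2))⁻¹ • G x := by
      have := (G₀ + sm σ₀ G₀).hol.continuous hα
      exact this.congr fun x => hA (G x)
    have hcB : Continuous fun y => (1 + ⟪gradient χ y, μ⟫) •
        ((√(1 + ‖G (y + χ y • μ)‖ ^ 2))⁻¹ • G (y + χ y • μ)) - ⟪gradient χ y,
          (√(1 + ‖G (y + χ y • μ)‖ ^ 2))⁻¹ • G (y + χ y • μ)⟫ • μ := by
      have h1 : Continuous (gradient χ) := (hχ.grad_hol α hα hα1).continuous hα
      have h2 : Continuous fun y => y + χ y • μ :=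
        continuous_id.add (hχ.smooth.continuous.smul continuous_const)
      have h3 := hcA.comp h2
      exact ((continuous_const.add (h1.inner continuous_const)).smul h3).sub
        ((h1.inner h3).smul continuous_const)
    have hwd := wd_univ hcB hcA (wd_chg hχ hμL hμ1.le hw) hw fun y hy => by
      simp [hχ.zero y hy, hχ.grad_zero y hy]
    have hrep : P + n1 c (μ, P, σ) - G₀ = R (ff c (μ, P, σ) - -sm σ₀ G₀) := by
      refine hR (fun y => V (y + χ y • μ) - V y) _ _ (grad_chg hχ hμ1.le hV) (fun y hy => ?_) ?_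
      · simp [hP, hG₀, hc, n1, hχ.zero y hy, hχ.grad_zero y hy]
      · convert hwd using 2 with y
        simp only [← hA]
        simp [hP, hG₀, hσ, hσ₀, hc, n1, ff, aa, add_smul]
        abel
    have hΦ : ((μ, P, σ) : E × HY α E E × HY α E ℝ) + NN R c (μ, P, σ) = (μ, q, 0) := by
      refine Prod.ext (add_zero μ) (Prod.ext ?_ (HY.ext fun x => ?_))
      · change P + (n1 c (μ, P, σ) - R (ff c (μ, P, σ))) = q
        rw [map_sub] at hrep
        rw [hq, ← add_sub_assoc, sub_eq_sub_iff_sub_eq_sub]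
        exact hrep
      · exact sg_eq (G (x + χ x • μ))
    obtain ⟨e1, e2⟩ := hΨ _ hz
    rw [hΦ] at e1 e2
    refine ⟨?_, e2⟩
    rw [e1]
    simp [hP, hχ.one]
  refine ⟨min (min δ 1) (1 / (2 * L)), by positivity, fun μ hμ => ?_⟩
  have h1 : ContDiffAt ℝ ω (fun μ : E => HY.ev 0 (Ψ (μ, q, 0)).2.1) μ :=
    (HY.ev 0 : HY α E E →L[ℝ] E).contDiff.contDiffAt.comp μ
      ((key μ (by simpa using hμ)).2.comp μ (contDiff_id.prodMk contDiff_const).contDiffAt).snd.fst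
  exact (h1.of_le le_top).contDiffWithinAt.congr (fun y hy => (key y (by simpa using hy)).1.symm)
    (key μ (by simpa using hμ)).1.symm

end Crest.Agent.R246.F1
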