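import Crest.Agent.R246.Defs

/-!
# Row 246, block F1 (interior regularity of the minimal surface equation): definitions

**Plan (parameter trick).**  After rescaling, `G = ∇V` is small in `C^α(E)`.  For a cutoff `χ` and a
small vector `μ` put `θ y = y + χ y • μ`.  The functions `P = G ∘ θ`, `σ = (1+|P|²)^{-1/2} - 1` solve
`Φ (μ, P, σ) = (μ, q, 0)` where `q` does not depend on `μ` and `Φ = id + O(2)` is a polynomial map of
the Banach space `E × C^α × C^α` (it contains the bounded operator `R = ∇Δ⁻¹div`).  The inverse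
function theorem gives that `μ ↦ P 0 = G μ` is smooth.

`R` is built from a radial bump `ψ`:  `∂_s (ψ_s * ∇d) = -s⁻¹ (k2)_s * F` if `Δ d = div F` weakly.

Files: `Ker` (bumps, retraction), `Est` (kernel averages), `Rep` (representation formula),
`Hol` (the Banach space), `Op` (the operator `R`), `Chg` (change of variables), `Core`, `Main`.
-/

set_option autoImplicit false
set_option linter.unusedSectionVars false

open MeasureTheory Metric Filter Topology Set Module
open scoped RealInnerProductSpace ENNReal ContDiff Real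

noncomputable section

namespace Crest.Agent.R246.F1

variable {E : Type} [NormedAddCommGroup E] [InnerProductSpace ℝ E] [FiniteDimensional ℝ E]

/-- global Hölder bound -/
def Hol {F : Type} [NormedAddCommGroup F] (α H : ℝ) (f : E → F) : Prop :=
  ∀ x y, ‖f x - f y‖ ≤ H * ‖x - y‖ ^ α

/-- `C¹` operator valued kernel supported in the unit ball -/
structure GK (k : E → E →L[ℝ] E) : Prop where
  smooth : ContDiff ℝ 1 k
  supp : ∀ z, 1 ≤ ‖z‖ → k z = 0

/-- the kernel `ψ · id` -/
def k0 (ψ : E → ℝ) (z : E) : E →L[ℝ] E := ψ z • ContinuousLinearMap.id ℝ E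

/-- the kernel `D (ψ z)`, i.e. `a ↦ κ z ⟪z, a⟫ z + ψ z a` -/
def k2 (ψ κ : E → ℝ) (z : E) : E →L[ℝ] E := κ z • rk z z + ψ z • ContinuousLinearMap.id ℝ E

/-- retraction onto the closed ball of radius `3` -/
def rt (x : E) : E := (max 1 (‖x‖ / 3))⁻¹ • x

/-- the cutoff of the localised translations -/
structure Cut (χ : E → ℝ) (L : ℝ) : Prop where
  smooth : ContDiff ℝ 2 χ
  zero : ∀ y, 1 < ‖y‖ → χ y = 0
  one : χ 0 = 1
  abs_le : ∀ y, |χ y| ≤ 1
  pos : 0 < L
  lip : ∀ x y, |χ x - χ y| ≤ L * ‖x - y‖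
  grad_le : ∀ y, ‖gradient χ y‖ ≤ L
  grad_zero : ∀ y, 1 < ‖y‖ → gradient χ y = 0
  grad_hol : ∀ α : ℝ, 0 < α → α < 1 → Hol α L (gradient χ)

variable [MeasurableSpace E] [BorelSpace E]

/-- weakly divergence free on `U` -/
def WD (A : E → E) (U : Set E) : Prop := ∀ φ : E → ℝ, ContDiff ℝ 1 φ → HasCompactSupport φ →
  tsupport φ ⊆ U → ∫ x, fderiv ℝ φ x (A x) = 0

/-- kernel average at scale `s` -/
def av (k : E → E →L[ℝ] E) (f : E → E) (s : ℝ) (x : E) : E := ∫ z, k z (f (x - s • z))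

/-- radial bump of integral one, `∇ψ = κ z` -/
structure Rad (ψ κ : E → ℝ) : Prop where
  sψ : ContDiff ℝ 2 ψ
  sκ : ContDiff ℝ 1 κ
  zψ : ∀ z, 1 ≤ ‖z‖ → ψ z = 0
  zκ : ∀ z, 1 ≤ ‖z‖ → κ z = 0
  int : ∫ z, ψ z = 1
  der : ∀ z, HasFDerivAt ψ (κ z • innerSL ℝ z) z

end Crest.Agent.R246.F1
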