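import Crest.Agent.R246.F1.Defs

/-! Row 246, block F1: estimates for kernel averages of Hölder functions (plan in `F1/Defs.lean`). -/

set_option autoImplicit false
set_option linter.unusedSectionVars false

open MeasureTheory Metric Filter Topology Set Module
open scoped RealInnerProductSpace ENNReal ContDiff Real

noncomputable section

namespace Crest.Agent.R246.F1

variable {E : Type} [NormedAddCommGroup E] [InnerProductSpace ℝ E] [FiniteDimensional ℝ E]
  [MeasurableSpace E] [BorelSpace E]

theorem Hol.continuous {F : Type} [NormedAddCommGroup F] {α H : ℝ} {f : E → F} (hα : 0 < α)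
    (h : Hol α H f) : Continuous f := by
  refine continuous_iff_continuousAt.2 fun y => tendsto_iff_norm_sub_tendsto_zero.2 ?_
  refine squeeze_zero (fun _ => norm_nonneg _) (fun x => h x y) ?_
  have : Continuous fun x : E => H * ‖x - y‖ ^ α :=
    continuous_const.mul ((continuous_id.sub continuous_const).norm.rpow_const
      fun _ => Or.inr hα.le)
  simpa [Real.zero_rpow hα.ne'] using this.tendsto y

lemma est_hcs {F : Type} [Zero F] [TopologicalSpace F] {f : E → F} {r : ℝ}
    (h : ∀ z, r ≤ ‖z‖ → f z = 0) : HasCompactSupport f :=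
  HasCompactSupport.intro (isCompact_closedBall 0 r) fun z hz =>
    h z (le_of_lt (by simpa using hz))

lemma GK.integrable {k : E → E →L[ℝ] E} (hk : GK k) : Integrable k :=
  hk.smooth.continuous.integrable_of_hasCompactSupport (est_hcs hk.supp)

lemma GK.integrable_apply {k : E → E →L[ℝ] E} (hk : GK k) {f : E → E} (hf : Continuous f) :
    Integrable fun z => k z (f z) :=
  (hk.smooth.continuous.clm_apply hf).integrable_of_hasCompactSupport
    (est_hcs (r := 1) fun z hz => by simp [hk.supp z hz])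

theorem av_integrable {k : E → E →L[ℝ] E} (hk : GK k) {f : E → E} (hf : Continuous f) (s : ℝ)
    (x : E) : Integrable fun z => k z (f (x - s • z)) :=
  hk.integrable_apply (by fun_prop)

theorem av_add {k : E → E →L[ℝ] E} (hk : GK k) {f g : E → E} (hf : Continuous f)
    (hg : Continuous g) (s : ℝ) (x : E) :
    av k (fun y => f y + g y) s x = av k f s x + av k g s x := by
  simp only [av, map_add]
  exact integral_add (av_integrable hk hf s x) (av_integrable hk hg s x)

theorem av_sub {k : E → E →L[ℝ] E} (hk : GK k) {f g : E → E} (hf : Continuous f)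
    (hg : Continuous g) (s : ℝ) (x : E) :
    av k (fun y => f y - g y) s x = av k f s x - av k g s x := by
  simp only [av, map_sub]
  exact integral_sub (av_integrable hk hf s x) (av_integrable hk hg s x)

theorem av_smul (k : E → E →L[ℝ] E) (f : E → E) (c s : ℝ) (x : E) :
    av k (fun y => c • f y) s x = c • av k f s x := by
  simp only [av, map_smul]
  exact integral_smul _ _

theorem av_cont {k : E → E →L[ℝ] E} (hk : GK k) {f : E → E} (hf : Continuous f) (x : E) :
    Continuous fun s => av k f s x := by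
  have hc := hk.smooth.continuous
  have h := continuous_parametric_integral_of_continuous (μ := (volume : Measure E))
    (f := fun (s : ℝ) (z : E) => k z (f (x - s • z)))
    ((hc.comp continuous_snd).clm_apply (by fun_prop)) (isCompact_closedBall (0 : E) 1)
  refine h.congr fun s => setIntegral_eq_integral_of_forall_compl_eq_zero fun z hz => ?_
  simp [hk.supp z (le_of_lt (by simpa using hz))]

lemma est_hol {f : E → E} {α H : ℝ} (hα : 0 < α) (hH : 0 ≤ H) (hf : Hol α H f) {s r : ℝ}
    (hs : 0 ≤ s) (x : E) {z : E} (hz : ‖z‖ ≤ r) : ‖f (x - s • z) - f x‖ ≤ H * (s * r) ^ α := by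
  refine (hf _ _).trans (mul_le_mul_of_nonneg_left
    (Real.rpow_le_rpow (norm_nonneg _) ?_ hα.le) hH)
  rw [sub_sub_cancel_left, norm_neg, norm_smul, Real.norm_of_nonneg hs]
  gcongr

theorem av_near {k : E → E →L[ℝ] E} (hk : GK k) {α : ℝ} (hα : 0 < α) : ∃ C, 0 ≤ C ∧
    ∀ (f : E → E) (H : ℝ), 0 ≤ H → Hol α H f → ∀ s, 0 ≤ s → ∀ x,
      ‖av k f s x - (∫ z, k z) (f x)‖ ≤ C * H * s ^ α := by
  refine ⟨∫ z, ‖k z‖, integral_nonneg fun _ => norm_nonneg _, fun f H hH hf s hs x => ?_⟩
  rw [ContinuousLinearMap.integral_apply hk.integrable, av,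
    ← integral_sub (av_integrable hk (hf.continuous hα) s x)
      (hk.integrable.apply_continuousLinearMap _), mul_assoc, ← integral_mul_const]
  refine norm_integral_le_of_norm_le (hk.integrable.norm.mul_const _)
    (Eventually.of_forall fun z => ?_)
  rcases le_total 1 ‖z‖ with hz | hz
  · simp [hk.supp z hz]
  · rw [← map_sub]
    refine (k z).le_opNorm_of_le ?_
    simpa using est_hol hα hH hf hs x hz

theorem av_far {k : E → E →L[ℝ] E} (hk : GK k) {α : ℝ} (hα : 0 < α) : ∃ C, 0 ≤ C ∧
    ∀ (f : E → E) (H : ℝ), 0 ≤ H → Hol α H f → ∀ s, 0 < s → ∀ x y, ‖x - y‖ ≤ s →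
      ‖av k f s x - av k f s y‖ ≤ C * H * ‖x - y‖ * s ^ (α - 1) := by
  obtain ⟨L, hL⟩ := hk.smooth.lipschitzWith_of_hasCompactSupport (est_hcs hk.supp) one_ne_zero
  refine ⟨L * 2 ^ α * (volume : Measure E).real (closedBall 0 2), by positivity,
    fun f H hH hf s hs x y hxy => ?_⟩
  have hc := hf.continuous hα
  set w : E := s⁻¹ • (x - y) with hw
  have hw1 : ‖w‖ = ‖x - y‖ / s := by
    rw [hw, norm_smul, norm_inv, Real.norm_of_nonneg hs.le, div_eq_inv_mul]
  have hw2 : ‖w‖ ≤ 1 := by rw [hw1, div_le_one hs]; exact hxy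
  have e0 : ∀ z, y - s • (z - w) = x - s • z := fun z => by
    rw [hw, smul_sub, smul_smul, mul_inv_cancel₀ hs.ne', one_smul]; abel
  have e1 : av k f s y = ∫ z, k (z - w) (f (x - s • z)) := by
    rw [av, ← integral_sub_right_eq_self _ w]
    simp only [e0]
  have i1 := av_integrable hk hc s x
  have i2 : Integrable fun z => k (z - w) (f (x - s • z)) := by
    simpa only [e0] using (av_integrable hk hc s y).comp_sub_right w
  have i3 := hk.integrable.apply_continuousLinearMap (f x)
  have i4 : Integrable fun z => k (z - w) (f x) := i3.comp_sub_right w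
  have e2 : av k f s x - av k f s y
      = ∫ z, (k z - k (z - w)) (f (x - s • z) - f x) := by
    have e3 : ∫ z, k (z - w) (f x) = ∫ z, k z (f x) :=
      integral_sub_right_eq_self (fun z => k z (f x)) w
    simp only [map_sub, sub_apply]
    rw [integral_sub (i1.sub' i2) (i3.sub' i4), integral_sub i1 i2, integral_sub i3 i4, e3,
      e1, av, sub_self, sub_zero]
  rw [e2, ← setIntegral_eq_integral_of_forall_compl_eq_zero (s := closedBall (0 : E) 2)]
  · refine (norm_setIntegral_le_of_norm_le_const (C := L * ‖w‖ * (H * (s * 2) ^ α))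
      measure_closedBall_lt_top fun z hz => ?_).trans (le_of_eq ?_)
    · refine (ContinuousLinearMap.le_opNorm _ _).trans (mul_le_mul ?_
        (est_hol hα hH hf hs.le x (by simpa using hz)) (norm_nonneg _) (by positivity))
      simpa [dist_eq_norm] using hL.dist_le_mul z (z - w)
    · rw [hw1, Real.mul_rpow hs.le (by norm_num), Real.rpow_sub_one hs.ne']
      ring
  · intro z hz
    have h2 : 2 < ‖z‖ := by simpa using hz
    rw [hk.supp z (by linarith), hk.supp (z - w) (by linarith [norm_sub_norm_le z w])]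
    simp

theorem av_int {k : E → E →L[ℝ] E} (hk : GK k) (h0 : ∫ z, k z = 0) {α : ℝ} (hα : 0 < α)
    (hα1 : α < 1) : ∃ C, 0 ≤ C ∧ ∀ (f : E → E) (H : ℝ), 0 ≤ H → Hol α H f → ∀ x y,
      IntegrableOn (fun s : ℝ => s⁻¹ • (av k f s x - av k f s y)) (Ioi 0) ∧
      ‖∫ s in Ioi (0 : ℝ), s⁻¹ • (av k f s x - av k f s y)‖ ≤ C * H * ‖x - y‖ ^ α := by
  obtain ⟨C1, hC1, h1⟩ := av_near hk hα
  obtain ⟨C2, hC2, h2⟩ := av_far hk hα
  have hα2 : 0 < 1 - α := by linarith
  refine ⟨2 * C1 / α + C2 / (1 - α), by positivity, fun f H hH hf x y => ?_⟩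
  rcases eq_or_ne x y with rfl | hxy
  · simp only [sub_self, smul_zero, integral_zero, norm_zero]
    exact ⟨integrableOn_zero, by positivity⟩
  set h := ‖x - y‖ with hh
  have hp : 0 < h := norm_pos_iff.2 (sub_ne_zero.2 hxy)
  set g : ℝ → E := fun s => s⁻¹ • (av k f s x - av k f s y) with hg
  have hc := hf.continuous hα
  have hm : ∀ μ : Measure ℝ, AEStronglyMeasurable g μ := fun μ =>
    (measurable_inv.smul ((av_cont hk hc x).sub (av_cont hk hc y)).measurable).aestronglyMeasurable
  have b1 : ∀ᵐ s ∂volume.restrict (Ioc 0 h), ‖g s‖ ≤ 2 * C1 * H * s ^ (α - 1) := by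
    refine (ae_restrict_iff' measurableSet_Ioc).2 (Eventually.of_forall fun s hs => ?_)
    have a1 := h1 f H hH hf s hs.1.le x
    have a2 := h1 f H hH hf s hs.1.le y
    simp only [h0, zero_apply, sub_zero] at a1 a2
    rw [hg, norm_smul, norm_inv, Real.norm_of_nonneg hs.1.le, Real.rpow_sub_one hs.1.ne',
      ← mul_div_assoc, div_eq_inv_mul]
    refine mul_le_mul_of_nonneg_left ((norm_sub_le _ _).trans ?_) (inv_nonneg.2 hs.1.le)
    linarith
  have b2 : ∀ᵐ s ∂volume.restrict (Ioi h), ‖g s‖ ≤ C2 * H * h * s ^ (α - 2) := by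
    refine (ae_restrict_iff' measurableSet_Ioi).2 (Eventually.of_forall fun s hs => ?_)
    have hs0 : 0 < s := hp.trans hs
    rw [hg, norm_smul, norm_inv, Real.norm_of_nonneg hs0.le, show α - 2 = α - 1 - 1 by ring,
      Real.rpow_sub_one hs0.ne' (α - 1), ← mul_div_assoc, div_eq_inv_mul]
    exact mul_le_mul_of_nonneg_left (h2 f H hH hf s hs0 x y (le_of_lt hs)) (inv_nonneg.2 hs0.le)
  have j1 : IntegrableOn (fun s : ℝ => 2 * C1 * H * s ^ (α - 1)) (Ioc 0 h) :=
    ((intervalIntegral.intervalIntegrable_rpow' (a := 0) (b := h)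
      (show -1 < α - 1 by linarith)).1).const_mul _
  have j2 : IntegrableOn (fun s : ℝ => C2 * H * h * s ^ (α - 2)) (Ioi h) :=
    (integrableOn_Ioi_rpow_of_lt (show α - 2 < -1 by linarith) hp).const_mul _
  have i1 : IntegrableOn g (Ioc 0 h) := j1.mono' (hm _) b1
  have i2 : IntegrableOn g (Ioi h) := j2.mono' (hm _) b2
  rw [← Ioc_union_Ioi_eq_Ioi hp.le]
  refine ⟨i1.union i2, ?_⟩
  rw [setIntegral_union Ioc_disjoint_Ioi_same measurableSet_Ioi i1 i2]
  refine (norm_add_le _ _).trans ((add_le_add (norm_integral_le_of_norm_le j1 b1)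
    (norm_integral_le_of_norm_le j2 b2)).trans (le_of_eq ?_))
  rw [integral_const_mul, integral_const_mul, ← intervalIntegral.integral_of_le hp.le,
    integral_rpow (Or.inl (show -1 < α - 1 by linarith)),
    integral_Ioi_rpow_of_lt (show α - 2 < -1 by linarith) hp, sub_add_cancel,
    Real.zero_rpow hα.ne', show α - 2 + 1 = α - 1 by ring, Real.rpow_sub_one hp.ne']
  have : α - 1 ≠ 0 := by linarith
  field_simp
  ring

end Crest.Agent.R246.F1
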