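import Crest.Agent.R246.F1.Est

/-! Row 246, block F1: the Banach space of bounded Hölder functions (plan in `F1/Defs.lean`). -/

set_option autoImplicit false
set_option linter.unusedSectionVars false

open MeasureTheory Metric Filter Topology Set Module
open scoped RealInnerProductSpace ENNReal ContDiff Real

noncomputable section

namespace Crest.Agent.R246.F1

variable {E : Type} [NormedAddCommGroup E] [InnerProductSpace ℝ E] [FiniteDimensional ℝ E]
  [MeasurableSpace E] [BorelSpace E]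

variable {F F₁ F₂ F₃ : Type} [NormedAddCommGroup F] [NormedSpace ℝ F]
  [NormedAddCommGroup F₁] [NormedSpace ℝ F₁] [NormedAddCommGroup F₂] [NormedSpace ℝ F₂]
  [NormedAddCommGroup F₃] [NormedSpace ℝ F₃]

/-- values and difference quotients -/
def HS (α : ℝ) (E F : Type) [NormedAddCommGroup E] [NormedAddCommGroup F] [NormedSpace ℝ F] :
    Submodule ℝ (lp (fun _ : E ⊕ E × E => F) ∞) where
  carrier := {u | ∀ x y, u (.inr (x, y)) = (‖x - y‖ ^ α)⁻¹ • (u (.inl x) - u (.inl y))}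
  add_mem' := by
    intro u v hu hv x y
    simp only [lp.coeFn_add, Pi.add_apply, hu x y, hv x y, ← smul_add]
    congr 1; abel
  zero_mem' := by intro x y; simp
  smul_mem' := by
    intro c u hu x y
    simp only [lp.coeFn_smul, Pi.smul_apply, hu x y, ← smul_sub]
    rw [smul_comm]

/-- bounded Hölder functions -/
def HY (α : ℝ) (E F : Type) [NormedAddCommGroup E] [NormedAddCommGroup F] [NormedSpace ℝ F] :
    Type := HS α E F

namespace HY

variable {α : ℝ}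

instance : NormedAddCommGroup (HY α E F) := inferInstanceAs (NormedAddCommGroup (HS α E F))
instance : NormedSpace ℝ (HY α E F) := inferInstanceAs (NormedSpace ℝ (HS α E F))

lemma isClosed_HS : IsClosed (HS α E F : Set (lp (fun _ : E ⊕ E × E => F) ∞)) := by
  have e : (HS α E F : Set (lp (fun _ : E ⊕ E × E => F) ∞)) = ⋂ x : E, ⋂ y : E,
      {u | u (.inr (x, y)) = (‖x - y‖ ^ α)⁻¹ • (u (.inl x) - u (.inl y))} := by
    ext u; simp only [mem_iInter]; rfl
  rw [e]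
  have c : ∀ i, Continuous fun u : lp (fun _ : E ⊕ E × E => F) ∞ => u i :=
    fun i => (lp.lipschitzWith_one_eval ∞ i).continuous
  exact isClosed_iInter fun x => isClosed_iInter fun y => isClosed_eq (c _)
    (((c _).sub (c _)).const_smul _)

instance [CompleteSpace F] : CompleteSpace (HY α E F) := isClosed_HS.completeSpace_coe

/-- the underlying function -/
def fn (u : HY α E F) (x : E) : F := (show HS α E F from u).1 (.inl x)

@[simp] lemma fn_add (u v : HY α E F) (x : E) : (u + v).fn x = u.fn x + v.fn x := rfl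
@[simp] lemma fn_sub (u v : HY α E F) (x : E) : (u - v).fn x = u.fn x - v.fn x := rfl
@[simp] lemma fn_neg (u : HY α E F) (x : E) : (-u).fn x = -u.fn x := rfl
@[simp] lemma fn_smul (c : ℝ) (u : HY α E F) (x : E) : (c • u).fn x = c • u.fn x := rfl
@[simp] lemma fn_zero (x : E) : (0 : HY α E F).fn x = 0 := rfl

lemma ext {u v : HY α E F} (h : ∀ x, u.fn x = v.fn x) : u = v := by
  refine Subtype.ext (lp.ext (funext fun i => ?_))
  rcases i with x | ⟨x, y⟩
  · exact h x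
  · have hu := (show HS α E F from u).2 x y
    have hv := (show HS α E F from v).2 x y
    refine hu.trans (Eq.trans ?_ hv.symm)
    exact congrArg₂ (fun a b : F => (‖x - y‖ ^ α)⁻¹ • (a - b)) (h x) (h y)

lemma norm_fn_le (u : HY α E F) (x : E) : ‖u.fn x‖ ≤ ‖u‖ :=
  lp.norm_apply_le_norm (by simp) (show HS α E F from u).1 (.inl x)

lemma hol (u : HY α E F) : Hol α ‖u‖ u.fn := by
  intro x y
  rcases eq_or_ne x y with rfl | hxy
  · rw [sub_self, norm_zero]; positivity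
  have hp : 0 < ‖x - y‖ ^ α := Real.rpow_pos_of_pos (norm_pos_iff.2 (sub_ne_zero.2 hxy)) _
  have h1 : ‖(show HS α E F from u).1 (.inr (x, y))‖ ≤ ‖u‖ :=
    lp.norm_apply_le_norm (by simp) (show HS α E F from u).1 (.inr (x, y))
  rw [(show HS α E F from u).2 x y, norm_smul, norm_inv, Real.norm_of_nonneg hp.le,
    inv_mul_le_iff₀ hp, mul_comm] at h1
  exact h1

lemma quot_le {f : E → F} {M : ℝ} (h1 : ∀ x, ‖f x‖ ≤ M) (h2 : Hol α M f) (i : E ⊕ E × E) :
    ‖(Sum.elim f (fun q => (‖q.1 - q.2‖ ^ α)⁻¹ • (f q.1 - f q.2)) i : F)‖ ≤ M := by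
  rcases i with x | ⟨x, y⟩
  · exact h1 x
  · have hM : 0 ≤ M := (norm_nonneg _).trans (h1 0)
    simp only [Sum.elim_inr]
    rcases eq_or_ne x y with rfl | hxy
    · simpa using hM
    have hp : 0 < ‖x - y‖ ^ α := Real.rpow_pos_of_pos (norm_pos_iff.2 (sub_ne_zero.2 hxy)) _
    rw [norm_smul, norm_inv, Real.norm_of_nonneg hp.le, inv_mul_le_iff₀ hp, mul_comm]
    exact h2 x y

/-- the element given by a bounded Hölder function -/
def mk (f : E → F) (M : ℝ) (h1 : ∀ x, ‖f x‖ ≤ M) (h2 : Hol α M f) : HY α E F :=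
  show HS α E F from ⟨⟨Sum.elim f fun q => (‖q.1 - q.2‖ ^ α)⁻¹ • (f q.1 - f q.2),
    memℓp_infty ⟨M, by rintro _ ⟨i, rfl⟩; exact quot_le h1 h2 i⟩⟩, fun _ _ => rfl⟩

@[simp] lemma fn_mk (f : E → F) (M : ℝ) (h1 : ∀ x, ‖f x‖ ≤ M) (h2 : Hol α M f) (x : E) :
    (mk f M h1 h2).fn x = f x := rfl

lemma norm_le (u : HY α E F) {M : ℝ} (h1 : ∀ x, ‖u.fn x‖ ≤ M) (h2 : Hol α M u.fn) : ‖u‖ ≤ M := by
  have e : u = mk u.fn M h1 h2 := ext fun _ => rfl
  rw [e]
  exact lp.norm_le_of_forall_le ((norm_nonneg _).trans (h1 0)) (quot_le h1 h2)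

/-- evaluation -/
def ev (x : E) : HY α E F →L[ℝ] F :=
  LinearMap.mkContinuous ⟨⟨fun u => u.fn x, fun _ _ => rfl⟩, fun _ _ => rfl⟩ 1 fun u => by
    simpa using u.norm_fn_le x

@[simp] lemma ev_apply (x : E) (u : HY α E F) : ev x u = u.fn x := rfl

lemma cst_hol (a : F) : Hol α ‖a‖ fun _ : E => a := fun x y => by
  rw [sub_self, norm_zero]; positivity

/-- constants -/
def cst : F →L[ℝ] HY α E F :=
  LinearMap.mkContinuous ⟨⟨fun a => mk (fun _ => a) ‖a‖ (fun _ => le_rfl) (cst_hol a),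
    fun _ _ => ext fun _ => rfl⟩, fun _ _ => ext fun _ => rfl⟩ 1 fun a => by
      rw [one_mul]; exact norm_le _ (fun _ => le_rfl) (cst_hol a)

@[simp] lemma fn_cst (a : F) (x : E) : (cst a : HY α E F).fn x = a := rfl

lemma bil_le (B : F₁ →L[ℝ] F₂ →L[ℝ] F₃) (u : HY α E F₁) (v : HY α E F₂) (x : E) :
    ‖B (u.fn x) (v.fn x)‖ ≤ 2 * ‖B‖ * ‖u‖ * ‖v‖ := by
  refine (B.le_opNorm₂ _ _).trans ?_
  have h1 := u.norm_fn_le x
  have h2 := v.norm_fn_le x
  have : ‖B‖ * ‖u.fn x‖ * ‖v.fn x‖ ≤ ‖B‖ * ‖u‖ * ‖v‖ := by gcongr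
  have : 0 ≤ ‖B‖ * ‖u‖ * ‖v‖ := by positivity
  linarith

lemma bil_hol (B : F₁ →L[ℝ] F₂ →L[ℝ] F₃) (u : HY α E F₁) (v : HY α E F₂) :
    Hol α (2 * ‖B‖ * ‖u‖ * ‖v‖) fun x => B (u.fn x) (v.fn x) := by
  intro x y
  have e : B (u.fn x) (v.fn x) - B (u.fn y) (v.fn y)
      = B (u.fn x) (v.fn x - v.fn y) + B (u.fn x - u.fn y) (v.fn y) := by
    simp only [map_sub, sub_apply]; abel
  rw [e]
  have h1 := u.norm_fn_le x
  have h2 := v.norm_fn_le y
  have h3 := u.hol x y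
  have h4 := v.hol x y
  have a1 : ‖B (u.fn x) (v.fn x - v.fn y)‖ ≤ ‖B‖ * ‖u‖ * (‖v‖ * ‖x - y‖ ^ α) :=
    (B.le_opNorm₂ _ _).trans (by gcongr)
  have a2 : ‖B (u.fn x - u.fn y) (v.fn y)‖ ≤ ‖B‖ * (‖u‖ * ‖x - y‖ ^ α) * ‖v‖ :=
    (B.le_opNorm₂ _ _).trans (by gcongr)
  refine (norm_add_le _ _).trans ?_
  linarith

/-- pointwise bilinear maps -/
def bil (B : F₁ →L[ℝ] F₂ →L[ℝ] F₃) : HY α E F₁ →L[ℝ] HY α E F₂ →L[ℝ] HY α E F₃ :=
  LinearMap.mkContinuous₂ (LinearMap.mk₂ ℝ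
    (fun u v => mk (fun x => B (u.fn x) (v.fn x)) _ (bil_le B u v) (bil_hol B u v))
    (fun _ _ _ => ext fun _ => by simp) (fun _ _ _ => ext fun _ => by simp)
    (fun _ _ _ => ext fun _ => by simp) (fun _ _ _ => ext fun _ => by simp)) (2 * ‖B‖)
    fun u v => norm_le _ (bil_le B u v) (bil_hol B u v)

@[simp] lemma fn_bil (B : F₁ →L[ℝ] F₂ →L[ℝ] F₃) (u : HY α E F₁) (v : HY α E F₂) (x : E) :
    (bil B u v).fn x = B (u.fn x) (v.fn x) := rfl

end HY

end Crest.Agent.R246.F1
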