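import Crest.Agent.R246.F1.Hol

/-! Row 246, block F1: the inverse function theorem for `id + O(2)` (plan in `F1/Defs.lean`). -/

set_option autoImplicit false
set_option linter.unusedSectionVars false

open MeasureTheory Metric Filter Topology Set Module
open scoped RealInnerProductSpace ENNReal ContDiff Real

noncomputable section

namespace Crest.Agent.R246.F1

variable {E : Type} [NormedAddCommGroup E] [InnerProductSpace ℝ E] [FiniteDimensional ℝ E]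
  [MeasurableSpace E] [BorelSpace E]

section abstr

variable {Z F F₁ F₂ F₃ : Type} [NormedAddCommGroup Z] [NormedSpace ℝ Z]
  [NormedAddCommGroup F] [NormedSpace ℝ F]
  [NormedAddCommGroup F₁] [NormedSpace ℝ F₁] [NormedAddCommGroup F₂] [NormedSpace ℝ F₂]
  [NormedAddCommGroup F₃] [NormedSpace ℝ F₃]

theorem ift [CompleteSpace Z] {N : Z → Z} (hN : ContDiff ℝ ω N)
    (h0 : HasFDerivAt N (0 : Z →L[ℝ] Z) 0) : ∃ δ : ℝ, 0 < δ ∧ ∃ Ψ : Z → Z, ∀ z, ‖z‖ < δ →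
      Ψ (z + N z) = z ∧ ContDiffAt ℝ ω Ψ (z + N z) := by
  have hΦ : ContDiffAt ℝ ω (fun z => z + N z) 0 := (contDiff_id.add hN).contDiffAt
  have hd : HasFDerivAt (fun z => z + N z)
      ((ContinuousLinearEquiv.refl ℝ Z : Z ≃L[ℝ] Z) : Z →L[ℝ] Z) 0 := by
    simpa using (hasFDerivAt_id (0 : Z)).fun_add h0
  have hn : (ω : WithTop ℕ∞) ≠ 0 := by simp
  have h1 := (hΦ.to_localInverse hd hn).eventually (by simp)
  have h2 := hΦ.continuousAt.eventually h1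
  have h3 := (hΦ.toOpenPartialHomeomorph _ hd hn).open_source.mem_nhds
    (hΦ.mem_toOpenPartialHomeomorph_source hd hn)
  obtain ⟨δ, hδ, h⟩ := Metric.eventually_nhds_iff.1 (h2.and h3)
  refine ⟨δ, hδ, hΦ.localInverse hd hn, fun z hz => ?_⟩
  obtain ⟨a, b⟩ := h (y := z) (by simpa using hz)
  exact ⟨(hΦ.toOpenPartialHomeomorph _ hd hn).left_inv b, a⟩

/-- analytic and vanishing at `0` -/
structure O1 (f : Z → F) : Prop where
  sm : ContDiff ℝ ω f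
  z : f 0 = 0

/-- analytic and vanishing to second order at `0` -/
structure O2 (f : Z → F) : Prop extends O1 f where
  d : HasFDerivAt f (0 : Z →L[ℝ] F) 0

lemma O1.add {f g : Z → F} (hf : O1 f) (hg : O1 g) : O1 fun z => f z + g z :=
  ⟨hf.sm.add hg.sm, by simp [hf.z, hg.z]⟩

lemma O1.map {f : Z → F₁} (L : F₁ →L[ℝ] F₂) (hf : O1 f) : O1 fun z => L (f z) :=
  ⟨L.contDiff.comp hf.sm, by simp [hf.z]⟩

lemma O2.zero : O2 fun _ : Z => (0 : F) := ⟨⟨contDiff_const, rfl⟩, hasFDerivAt_const _ _⟩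

lemma O2.add {f g : Z → F} (hf : O2 f) (hg : O2 g) : O2 fun z => f z + g z :=
  ⟨hf.toO1.add hg.toO1, by simpa using hf.d.fun_add hg.d⟩

lemma O2.sub {f g : Z → F} (hf : O2 f) (hg : O2 g) : O2 fun z => f z - g z :=
  ⟨⟨hf.sm.sub hg.sm, by simp [hf.z, hg.z]⟩, by simpa using hf.d.fun_sub hg.d⟩

lemma O2.map {f : Z → F₁} (L : F₁ →L[ℝ] F₂) (hf : O2 f) : O2 fun z => L (f z) :=
  ⟨hf.toO1.map L, (L.hasFDerivAt.comp 0 hf.d).congr_fderiv (by simp)⟩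

lemma O2.prod {f : Z → F₁} {g : Z → F₂} (hf : O2 f) (hg : O2 g) : O2 fun z => (f z, g z) :=
  ⟨⟨hf.sm.prodMk hg.sm, by simp [hf.z, hg.z]⟩, (hf.d.prodMk hg.d).congr_fderiv (by ext <;> simp)⟩

lemma O2.bil (B : F₁ →L[ℝ] F₂ →L[ℝ] F₃) {f : Z → F₁} {g : Z → F₂} (hf : O1 f) (hg : O1 g) :
    O2 fun z => B (f z) (g z) := by
  refine ⟨⟨(B.contDiff.comp hf.sm).clm_apply hg.sm, by simp [hf.z]⟩, ?_⟩
  have h1 := (hf.sm.differentiable (by simp) 0).hasFDerivAt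
  have h2 := (hg.sm.differentiable (by simp) 0).hasFDerivAt
  have h := (B.hasFDerivAt.comp 0 h1).clm_apply h2
  refine h.congr_fderiv ?_
  ext v
  simp [hf.z, hg.z]

end abstr

variable {α : ℝ}

/-- inner product as a bilinear map -/
def ipE : E →L[ℝ] E →L[ℝ] ℝ := innerSL ℝ

@[simp] lemma ipE_apply (a b : E) : ipE a b = ⟪a, b⟫ := rfl

/-- pointwise inner product -/
def ip : HY α E E →L[ℝ] HY α E E →L[ℝ] HY α E ℝ := HY.bil ipE

/-- pointwise scalar multiplication -/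
def sm : HY α E ℝ →L[ℝ] HY α E E →L[ℝ] HY α E E := HY.bil (ContinuousLinearMap.lsmul ℝ ℝ)

/-- pointwise multiplication -/
def ml : HY α E ℝ →L[ℝ] HY α E ℝ →L[ℝ] HY α E ℝ := HY.bil (ContinuousLinearMap.mul ℝ ℝ)

@[simp] lemma fn_ip (u v : HY α E E) (x : E) : (ip u v).fn x = ⟪u.fn x, v.fn x⟫ := rfl
@[simp] lemma fn_sm (u : HY α E ℝ) (v : HY α E E) (x : E) : (sm u v).fn x = u.fn x • v.fn x := rfl
@[simp] lemma fn_ml (u v : HY α E ℝ) (x : E) : (ml u v).fn x = u.fn x * v.fn x := rfl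

/-- `a = (1 + σ) P` -/
def aa (z : E × HY α E E × HY α E ℝ) : HY α E E := z.2.1 + sm z.2.2 z.2.1

/-- `⟪μ, P⟫ c` -/
def n1 (c : HY α E E) (z : E × HY α E E × HY α E ℝ) : HY α E E := sm (ip (HY.cst z.1) z.2.1) c

/-- the right hand side `F = P + ⟪μ, P⟫ c - ((1 + ⟪c, μ⟫) a - ⟪c, a⟫ μ)` -/
def ff (c : HY α E E) (z : E × HY α E E × HY α E ℝ) : HY α E E :=
  n1 c z - sm z.2.2 z.2.1 - sm (ip c (HY.cst z.1)) (aa z) + sm (ip c (aa z)) (HY.cst z.1)

/-- the nonlinearity -/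
def NN (R : HY α E E →L[ℝ] HY α E E) (c : HY α E E) (z : E × HY α E E × HY α E ℝ) :
    E × HY α E E × HY α E ℝ :=
  (0, n1 c z - R (ff c z), (2⁻¹ : ℝ) • (ml z.2.2 z.2.2 + ip (aa z) (aa z)))

theorem NN_O2 (R : HY α E E →L[ℝ] HY α E E) (c : HY α E E) : O2 (NN R c) := by
  have h0 : O1 fun z : E × HY α E E × HY α E ℝ => z.1 := ⟨contDiff_fst, rfl⟩
  have hμ : O1 fun z : E × HY α E E × HY α E ℝ => (HY.cst z.1 : HY α E E) := h0.map _
  have h2 : O1 fun z : E × HY α E E × HY α E ℝ => z.2 := ⟨contDiff_snd, rfl⟩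
  have hP : O1 fun z : E × HY α E E × HY α E ℝ => z.2.1 :=
    h2.map (ContinuousLinearMap.fst ℝ _ _)
  have hσ : O1 fun z : E × HY α E E × HY α E ℝ => z.2.2 :=
    h2.map (ContinuousLinearMap.snd ℝ _ _)
  have ha : O1 (aa (E := E) (α := α)) := hP.add (O2.bil sm hσ hP).toO1
  have h1 : O2 (n1 c) := (O2.bil ip hμ hP).map (sm.flip c)
  have hf : O2 (ff c) := ((h1.sub (O2.bil sm hσ hP)).sub (O2.bil sm (hμ.map (ip c)) ha)).add
    (O2.bil sm (ha.map (ip c)) hμ)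
  exact O2.zero.prod ((h1.sub (hf.map R)).prod
    (((O2.bil ml hσ hσ).add (O2.bil ip ha ha)).map
      (ContinuousLinearMap.lsmul ℝ ℝ (2⁻¹ : ℝ) : HY α E ℝ →L[ℝ] HY α E ℝ)))

end Crest.Agent.R246.F1
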