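import Crest.Agent.R246.F1.Ker

/-! Row 246, block F1: rescaling (plan in `F1/Defs.lean`). -/

set_option autoImplicit false
set_option linter.unusedSectionVars false

open MeasureTheory Metric Filter Topology Set Module
open scoped RealInnerProductSpace ENNReal ContDiff Real

noncomputable section

namespace Crest.Agent.R246.F1

variable {E : Type} [NormedAddCommGroup E] [InnerProductSpace ℝ E] [FiniteDimensional ℝ E]
  [MeasurableSpace E] [BorelSpace E]

theorem wd_scale {ρ r : ℝ} (hr : 0 < r) (hrρ : 3 * r < ρ) {g : E → E}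
    (hw : ∀ φ : E → ℝ, ContDiff ℝ 1 φ → HasCompactSupport φ → tsupport φ ⊆ ball 0 ρ →
      ∫ x, ⟪g x, gradient φ x⟫ / √(1 + ‖g x‖ ^ 2) = 0) :
    WD (fun x => (√(1 + ‖g (r • rt x)‖ ^ 2))⁻¹ • g (r • rt x)) (ball 0 3) := by
  intro φ h1 h2 h3
  let T : E ≃ₜ E := Homeomorph.smulOfNeZero r⁻¹ (inv_ne_zero hr.ne')
  have hT : ∀ y, T y = r⁻¹ • y := fun _ => rfl
  have c1 : ContDiff ℝ 1 (φ ∘ T) := h1.comp (contDiff_id.const_smul r⁻¹)
  have h4 := hw (φ ∘ T) c1 (h2.comp_homeomorph T) fun x hx => by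
    have : T x ∈ tsupport φ := by
      rw [tsupport, Function.support_comp_eq_preimage, ← T.preimage_closure] at hx
      exact hx
    have := h3 this
    rw [mem_ball_zero_iff, hT, norm_smul, norm_inv, Real.norm_of_nonneg hr.le,
      inv_mul_lt_iff₀ hr] at this
    rw [mem_ball_zero_iff]
    linarith
  have h5 := Measure.integral_comp_smul (volume : Measure E)
    (fun x => ⟪g x, gradient (φ ∘ T) x⟫ / √(1 + ‖g x‖ ^ 2)) r
  rw [h4, smul_zero] at h5
  rw [← mul_zero r, ← h5, ← integral_const_mul]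
  congr 1
  funext x
  have h6 : HasFDerivAt (φ ∘ T) ((fderiv ℝ φ x).comp (r⁻¹ • ContinuousLinearMap.id ℝ E))
      (r • x) := by
    refine HasFDerivAt.comp _ ?_ ((hasFDerivAt_id _).const_smul r⁻¹)
    rw [hT, smul_smul, inv_mul_cancel₀ hr.ne', one_smul]
    exact (h1.differentiable one_ne_zero x).hasFDerivAt
  rw [real_inner_comm, gradient, InnerProductSpace.toDual_symm_apply, h6.fderiv]
  rcases le_or_gt ‖x‖ 3 with hx | hx
  · simp only [rt_of_le hx, map_smul, smul_eq_mul, ContinuousLinearMap.comp_apply, smul_apply,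
      ContinuousLinearMap.id_apply]
    field_simp
  · have : x ∉ tsupport φ := fun h => by
      have := h3 h
      rw [mem_ball_zero_iff] at this
      linarith
    simp [fderiv_of_notMem_tsupport ℝ this]

theorem sch_of_core
    (core : ∀ {α : ℝ}, 0 < α → α < 1 → ∃ ε : ℝ, 0 < ε ∧ ∀ (V : E → ℝ) (G : E → E),
      (∀ x, ‖G x‖ ≤ ε) → Hol α ε G → (∀ x ∈ ball (0 : E) 3, HasGradientAt V (G x) x) →
      WD (fun x => (√(1 + ‖G x‖ ^ 2))⁻¹ • G x) (ball 0 3) →
      ∃ δ : ℝ, 0 < δ ∧ ContDiffOn ℝ ∞ G (ball 0 δ)) : StSch E := by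
  intro ρ α K v g hρ hα hα1 hg0 hv hH hw
  obtain ⟨ε, hε, hc⟩ := core hα hα1
  have ht : Tendsto (fun r : ℝ => |K| * (3 * r) ^ α) (𝓝 0) (𝓝 0) := by
    have : Continuous fun r : ℝ => |K| * (3 * r) ^ α :=
      continuous_const.mul ((continuous_const.mul continuous_id).rpow_const fun _ => Or.inr hα.le)
    simpa [Real.zero_rpow hα.ne'] using this.tendsto 0
  obtain ⟨r, ⟨h1, h2⟩, hr⟩ := ((((ht.eventually (gt_mem_nhds hε)).and
    (gt_mem_nhds (show (0 : ℝ) < ρ / 3 by positivity))).filter_mono nhdsWithin_le_nhds).and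
    (self_mem_nhdsWithin (s := Ioi (0 : ℝ)))).exists
  replace hr : 0 < r := hr
  have hb : ∀ x : E, ‖x‖ ≤ 3 → r • x ∈ ball (0 : E) ρ := fun x hx => by
    rw [mem_ball_zero_iff, norm_smul, Real.norm_of_nonneg hr.le]
    nlinarith
  have hh : ∀ x y : E, ‖x‖ ≤ 3 → ‖y‖ ≤ 3 → ∀ t, ‖x - y‖ ≤ 3 * t →
      ‖g (r • x) - g (r • y)‖ ≤ ε * t ^ α := fun x y hx hy t h => by
    have ht0 : 0 ≤ t := by linarith [norm_nonneg (x - y)]
    refine (hH _ (hb x hx) _ (hb y hy)).trans ?_
    have : ‖r • x - r • y‖ ^ α ≤ (3 * r) ^ α * t ^ α := by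
      rw [← Real.mul_rpow (by positivity) ht0]
      refine Real.rpow_le_rpow (norm_nonneg _) ?_ hα.le
      rw [← smul_sub, norm_smul, Real.norm_of_nonneg hr.le]
      nlinarith
    calc K * ‖r • x - r • y‖ ^ α ≤ |K| * ((3 * r) ^ α * t ^ α) :=
          mul_le_mul (le_abs_self K) this (by positivity) (abs_nonneg K)
      _ ≤ ε * t ^ α := by rw [← mul_assoc]; gcongr
  obtain ⟨δ, hδ, hG⟩ := hc (fun x => r⁻¹ * v (r • x)) (fun x => g (r • rt x))
    (fun x => by
      simpa [hg0] using hh (rt x) 0 (norm_rt_le x) (by simp) 1 (by simpa using norm_rt_le x))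
    (fun x y => hh _ _ (norm_rt_le x) (norm_rt_le y) _
      ((rt_lip x y).trans (by linarith [norm_nonneg (x - y)])))
    (fun x hx => by
      have hx3 : ‖x‖ ≤ 3 := (mem_ball_zero_iff.1 hx).le
      rw [rt_of_le hx3, hasGradientAt_iff_hasFDerivAt]
      refine (((hv _ (hb x hx3)).hasFDerivAt.comp x
        ((hasFDerivAt_id x).const_smul r)).const_mul r⁻¹).congr_fderiv ?_
      ext a
      simp [hr.ne'])
    (wd_scale hr (by linarith) hw)
  have hm : 0 < min δ 3 := by positivity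
  have hle : r * min δ 3 ≤ ρ := by nlinarith [min_le_right δ 3]
  have hn : ∀ x ∈ ball (0 : E) (r * min δ 3), ‖r⁻¹ • x‖ < min δ 3 := fun x hx => by
    rw [norm_smul, norm_inv, Real.norm_of_nonneg hr.le, inv_mul_lt_iff₀ hr]
    exact mem_ball_zero_iff.1 hx
  have hg : ContDiffOn ℝ ∞ g (ball 0 (r * min δ 3)) := by
    refine (hG.comp (contDiff_id.const_smul r⁻¹).contDiffOn fun x hx =>
      mem_ball_zero_iff.2 ((hn x hx).trans_le (min_le_left _ _))).congr fun x hx => ?_
    simp only [Function.comp_apply, id]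
    rw [rt_of_le ((hn x hx).le.trans (min_le_right _ _)), smul_smul, mul_inv_cancel₀ hr.ne',
      one_smul]
  refine ⟨r * min δ 3, by positivity, hle, (contDiffOn_infty_iff_fderiv_of_isOpen isOpen_ball).2
    ⟨fun x hx => (hv x (ball_subset_ball hle hx)).differentiableAt.differentiableWithinAt, ?_⟩⟩
  exact ((InnerProductSpace.toDual ℝ E).contDiff.comp_contDiffOn hg).congr fun x hx =>
    (hv x (ball_subset_ball hle hx)).hasFDerivAt.fderiv

end Crest.Agent.R246.F1
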