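import Crest.Agent.R246.F1.Core
import Crest.Agent.R246.F1.Scale

/-! Row 246, block F1: final statements (see `R246/Blueprint.lean`, `R246/F1/Defs.lean`). -/

set_option autoImplicit false

namespace Crest.Agent.R246

theorem stSch : All fun E => StSch E := fun _ _ _ _ _ _ => F1.sch_of_core F1.core

end Crest.Agent.R246
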